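import Mathlib

open scoped BigOperators
open Filter Topology MeasureTheory

namespace Vale.Agent.Results.P166.A_DeterministicBounds

/-- The spin value `+1` or `-1` of coordinate `i` of the configuration `s`. -/
def spin {N : ℕ} (s : Fin N → Bool) (i : Fin N) : ℝ := if s i then 1 else -1

/-- The coupling matrix `Uᵀ Λ U` with `Λ = diag(lam)`. -/
def coupling {N : ℕ} (lam : Fin N → ℝ) (U : Matrix (Fin N) (Fin N) ℝ) :
    Matrix (Fin N) (Fin N) ℝ :=
  U.transpose * Matrix.diagonal lam * U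

/-- The pressure `(1/N) log [2^(-N) ∑_σ exp((β/2) σᵀ J σ)]`. -/
noncomputable def pressure {N : ℕ} (J : Matrix (Fin N) (Fin N) ℝ) (β : ℝ) : ℝ :=
  (1 / (N : ℝ)) * Real.log ((1 / 2 : ℝ) ^ N * ∑ s : Fin N → Bool,
    Real.exp (β / 2 * ∑ i, ∑ j, spin s i * J i j * spin s j))

theorem spin_sq {N : ℕ} (s : Fin N → Bool) (i : Fin N) : spin s i * spin s i = 1 := by
  unfold spin; split_ifs <;> norm_num

theorem quad_eq_dot {N : ℕ} (J : Matrix (Fin N) (Fin N) ℝ) (x : Fin N → ℝ) :
    ∑ i, ∑ j, x i * J i j * x j = x ⬝ᵥ J.mulVec x := by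
  simp only [dotProduct, Matrix.mulVec, Finset.mul_sum]
  refine Finset.sum_congr rfl fun i _ => Finset.sum_congr rfl fun j _ => ?_
  ring

theorem quad_coupling {N : ℕ} (lam : Fin N → ℝ) (U : Matrix (Fin N) (Fin N) ℝ)
    (x : Fin N → ℝ) :
    x ⬝ᵥ (coupling lam U).mulVec x = ∑ k, lam k * (U.mulVec x k * U.mulVec x k) := by
  unfold coupling
  rw [← Matrix.mulVec_mulVec, ← Matrix.mulVec_mulVec, Matrix.dotProduct_mulVec,
    Matrix.vecMul_transpose]
  simp only [dotProduct, Matrix.mulVec_diagonal]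
  refine Finset.sum_congr rfl fun k _ => ?_
  ring

theorem norm_mulVec {N : ℕ} (U : Matrix (Fin N) (Fin N) ℝ)
    (hU : U ∈ Matrix.orthogonalGroup (Fin N) ℝ) (x : Fin N → ℝ) :
    ∑ k, U.mulVec x k * U.mulVec x k = ∑ i, x i * x i := by
  have h1 : U.transpose * U = 1 := by
    have := (Matrix.mem_orthogonalGroup_iff' (Fin N) ℝ).1 hU
    simpa [Matrix.star_eq_conjTranspose] using this
  have : U.mulVec x ⬝ᵥ U.mulVec x = x ⬝ᵥ x := by
    rw [Matrix.dotProduct_mulVec]
    have h2 : Matrix.vecMul (U.mulVec x) U = x := by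
      rw [← Matrix.vecMul_transpose, Matrix.vecMul_vecMul, h1, Matrix.vecMul_one]
    rw [h2]
  simpa [dotProduct] using this

theorem trace_coupling {N : ℕ} (lam : Fin N → ℝ) (U : Matrix (Fin N) (Fin N) ℝ)
    (hU : U ∈ Matrix.orthogonalGroup (Fin N) ℝ) :
    (coupling lam U).trace = ∑ i, lam i := by
  have h1 : U * U.transpose = 1 := by
    have := (Matrix.mem_orthogonalGroup_iff (Fin N) ℝ).1 hU
    simpa [Matrix.star_eq_conjTranspose] using this
  unfold coupling
  rw [Matrix.trace_mul_comm, ← Matrix.mul_assoc, h1, Matrix.one_mul, Matrix.trace_diagonal]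

theorem spin_corr {N : ℕ} (i j : Fin N) :
    ∑ s : Fin N → Bool, spin s i * spin s j = if i = j then (2 : ℝ) ^ N else 0 := by
  split_ifs with h
  · subst h
    simp [spin_sq]
  · have hinv : Function.Involutive (fun s : Fin N → Bool => Function.update s i (!s i)) := by
      intro s
      funext k
      by_cases hk : k = i
      · subst hk; simp
      · simp [Function.update_of_ne hk]
    have hflip : ∀ s : Fin N → Bool,
        spin (Function.update s i (!s i)) i * spin (Function.update s i (!s i)) j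
          = -(spin s i * spin s j) := by
      intro s
      have hj : spin (Function.update s i (!s i)) j = spin s j := by
        unfold spin
        rw [Function.update_of_ne (Ne.symm h)]
      have hi : spin (Function.update s i (!s i)) i = -spin s i := by
        unfold spin
        simp only [Function.update_self]
        cases s i <;> simp
      rw [hj, hi]; ring
    have hsum := Equiv.sum_comp (hinv.toPerm _) (fun s : Fin N → Bool => spin s i * spin s j)
    simp only [Function.Involutive.coe_toPerm, hflip, Finset.sum_neg_distrib] at hsum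
    linarith

theorem sum_quad {N : ℕ} (J : Matrix (Fin N) (Fin N) ℝ) :
    ∑ s : Fin N → Bool, ∑ i, ∑ j, spin s i * J i j * spin s j = (2 : ℝ) ^ N * J.trace := by
  rw [Finset.sum_comm]
  have : ∀ i : Fin N, ∑ s : Fin N → Bool, ∑ j, spin s i * J i j * spin s j
      = (2 : ℝ) ^ N * J i i := by
    intro i
    rw [Finset.sum_comm]
    have h2 : ∀ j : Fin N, ∑ s : Fin N → Bool, spin s i * J i j * spin s j
        = J i j * (if i = j then (2 : ℝ) ^ N else 0) := by
      intro j
      rw [← spin_corr i j, Finset.mul_sum]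
      refine Finset.sum_congr rfl fun s _ => ?_
      ring
    simp only [h2]
    simp [mul_comm]
  simp only [this, Matrix.trace, Matrix.diag, ← Finset.mul_sum]

theorem card_cfg (N : ℕ) : (Fintype.card (Fin N → Bool) : ℝ) = (2 : ℝ) ^ N := by
  simp

/-- Both deterministic bounds for a fixed size. -/
theorem bounds {N : ℕ} (hN : 0 < N) (lam : Fin N → ℝ) (U : Matrix (Fin N) (Fin N) ℝ)
    (hU : U ∈ Matrix.orthogonalGroup (Fin N) ℝ) (β : ℝ) (hβ : 0 ≤ β) :
    β / 2 * ((∑ i, lam i) / N) ≤ pressure (coupling lam U) β ∧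
      ∀ M : ℝ, (∀ i, lam i ≤ M) → pressure (coupling lam U) β ≤ β / 2 * M := by
  have hNr : (0 : ℝ) < N := by exact_mod_cast hN
  set J := coupling lam U with hJ
  set q : (Fin N → Bool) → ℝ := fun s => ∑ i, ∑ j, spin s i * J i j * spin s j with hq
  have hpos : 0 < (1 / 2 : ℝ) ^ N * ∑ s : Fin N → Bool, Real.exp (β / 2 * q s) := by
    apply mul_pos (by positivity)
    apply Finset.sum_pos
    · intro s _; exact Real.exp_pos _
    · exact Finset.univ_nonempty
  have hw : ∑ _s : Fin N → Bool, (1 / 2 : ℝ) ^ N = 1 := by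
    rw [Finset.sum_const, Finset.card_univ, nsmul_eq_mul, card_cfg, ← mul_pow]
    norm_num
  constructor
  · -- Jensen
    have hj := convexOn_exp.map_sum_le (t := (Finset.univ : Finset (Fin N → Bool)))
      (w := fun _ => (1 / 2 : ℝ) ^ N) (p := fun s => β / 2 * q s)
      (fun s _ => by positivity) hw (fun s _ => Set.mem_univ _)
    simp only [smul_eq_mul] at hj
    rw [← Finset.mul_sum, ← Finset.mul_sum, ← Finset.mul_sum] at hj
    have hsumq : ∑ s : Fin N → Bool, q s = (2 : ℝ) ^ N * ∑ i, lam i := by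
      rw [hq, sum_quad, hJ, trace_coupling lam U hU]
    rw [hsumq] at hj
    have h2 : (1 / 2 : ℝ) ^ N * (β / 2 * ((2 : ℝ) ^ N * ∑ i, lam i)) = β / 2 * ∑ i, lam i := by
      have : (1 / 2 : ℝ) ^ N * (2 : ℝ) ^ N = 1 := by rw [← mul_pow]; norm_num
      calc (1 / 2 : ℝ) ^ N * (β / 2 * ((2 : ℝ) ^ N * ∑ i, lam i))
          = ((1 / 2 : ℝ) ^ N * (2 : ℝ) ^ N) * (β / 2 * ∑ i, lam i) := by ring
        _ = β / 2 * ∑ i, lam i := by rw [this, one_mul]
    rw [h2] at hj
    have hlog : β / 2 * ∑ i, lam i ≤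
        Real.log ((1 / 2 : ℝ) ^ N * ∑ s : Fin N → Bool, Real.exp (β / 2 * q s)) := by
      rw [Real.le_log_iff_exp_le hpos]
      exact hj
    unfold pressure
    calc β / 2 * ((∑ i, lam i) / N) = (1 / (N : ℝ)) * (β / 2 * ∑ i, lam i) := by
          field_simp
      _ ≤ (1 / (N : ℝ)) * Real.log ((1 / 2 : ℝ) ^ N * ∑ s : Fin N → Bool,
            Real.exp (β / 2 * q s)) := by
          apply mul_le_mul_of_nonneg_left hlog
          positivity
  · intro M hM
    have hqle : ∀ s : Fin N → Bool, q s ≤ M * N := by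
      intro s
      have h1 : q s = ∑ k, lam k * (U.mulVec (spin s) k * U.mulVec (spin s) k) := by
        rw [hq]
        simp only
        rw [quad_eq_dot, hJ, quad_coupling]
      have h2 : ∑ k, lam k * (U.mulVec (spin s) k * U.mulVec (spin s) k)
          ≤ ∑ k, M * (U.mulVec (spin s) k * U.mulVec (spin s) k) := by
        apply Finset.sum_le_sum
        intro k _
        exact mul_le_mul_of_nonneg_right (hM k) (mul_self_nonneg _)
      have h3 : ∑ k, M * (U.mulVec (spin s) k * U.mulVec (spin s) k) = M * N := by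
        rw [← Finset.mul_sum, norm_mulVec U hU]
        simp [spin_sq]
      linarith
    have hexp : ∀ s : Fin N → Bool, Real.exp (β / 2 * q s) ≤ Real.exp (β / 2 * (M * N)) := by
      intro s
      apply Real.exp_le_exp.2
      exact mul_le_mul_of_nonneg_left (hqle s) (by positivity)
    have hsum : (1 / 2 : ℝ) ^ N * ∑ s : Fin N → Bool, Real.exp (β / 2 * q s)
        ≤ Real.exp (β / 2 * (M * N)) := by
      calc (1 / 2 : ℝ) ^ N * ∑ s : Fin N → Bool, Real.exp (β / 2 * q s)
          ≤ (1 / 2 : ℝ) ^ N * ∑ _s : Fin N → Bool, Real.exp (β / 2 * (M * N)) := by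
            apply mul_le_mul_of_nonneg_left _ (by positivity)
            exact Finset.sum_le_sum fun s _ => hexp s
        _ = Real.exp (β / 2 * (M * N)) := by
            rw [Finset.sum_const, Finset.card_univ, nsmul_eq_mul, card_cfg, ← mul_assoc,
              ← mul_pow]
            norm_num
    have hlog : Real.log ((1 / 2 : ℝ) ^ N * ∑ s : Fin N → Bool, Real.exp (β / 2 * q s))
        ≤ β / 2 * (M * N) := by
      rw [Real.log_le_iff_le_exp hpos]
      exact hsum
    unfold pressure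
    calc (1 / (N : ℝ)) * Real.log ((1 / 2 : ℝ) ^ N * ∑ s : Fin N → Bool,
            Real.exp (β / 2 * q s))
        ≤ (1 / (N : ℝ)) * (β / 2 * (M * N)) := by
          apply mul_le_mul_of_nonneg_left hlog
          positivity
      _ = β / 2 * M := by field_simp

/-- Weak convergence of the spectral measures plus confinement of the spectrum gives convergence
of the normalised traces. -/
theorem mean_tendsto (lam : (N : ℕ) → Fin N → ℝ) (μ : Measure ℝ) [IsProbabilityMeasure μ]
    (a b : ℝ) (hsupp : ∀ᵐ x ∂μ, a ≤ x ∧ x ≤ b)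
    (hweak : ∀ g : ℝ → ℝ, Continuous g → (∃ C, ∀ x, |g x| ≤ C) →
      Tendsto (fun N : ℕ => (∑ i, g (lam N i)) / N) atTop (𝓝 (∫ x, g x ∂μ)))
    (hedge : ∀ ε > 0, ∀ᶠ N in atTop, ∀ i, a - ε ≤ lam N i ∧ lam N i ≤ b + ε) :
    Tendsto (fun N : ℕ => (∑ i, lam N i) / N) atTop (𝓝 (∫ x, x ∂μ)) := by
  set g : ℝ → ℝ := fun x => max (a - 1) (min (b + 1) x) with hg
  have hgc : Continuous g := continuous_const.max (continuous_const.min continuous_id)
  have hgb : ∃ C, ∀ x, |g x| ≤ C := by
    refine ⟨|a - 1| + |b + 1|, fun x => abs_le.2 ⟨?_, ?_⟩⟩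
    · have h1 : a - 1 ≤ g x := le_max_left _ _
      have h2 := neg_abs_le (a - 1)
      have h3 := abs_nonneg (b + 1)
      linarith
    · have h1 : g x ≤ max (a - 1) (b + 1) := max_le_max le_rfl (min_le_left _ _)
      have h2 : max (a - 1) (b + 1) ≤ |a - 1| + |b + 1| :=
        max_le (by linarith [le_abs_self (a - 1), abs_nonneg (b + 1)])
          (by linarith [le_abs_self (b + 1), abs_nonneg (a - 1)])
      linarith
  have h1 := hweak g hgc hgb
  have hint : ∫ x, g x ∂μ = ∫ x, x ∂μ := by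
    apply integral_congr_ae
    filter_upwards [hsupp] with x hx
    simp only [hg]
    rw [min_eq_right (by linarith [hx.2]), max_eq_right (by linarith [hx.1])]
  rw [hint] at h1
  apply h1.congr'
  filter_upwards [hedge 1 one_pos] with N hN
  congr 1
  apply Finset.sum_congr rfl
  intro i _
  simp only [hg]
  have := hN i
  rw [min_eq_right (by linarith [this.2]), max_eq_right (by linarith [this.1])]

/-- The asymptotic two-sided bound. -/
theorem asymptotic (lam : (N : ℕ) → Fin N → ℝ) (U : (N : ℕ) → Matrix (Fin N) (Fin N) ℝ)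
    (μ : Measure ℝ) [IsProbabilityMeasure μ] (a b β : ℝ)
    (hU : ∀ N, U N ∈ Matrix.orthogonalGroup (Fin N) ℝ) (hβ : 0 ≤ β)
    (hsupp : ∀ᵐ x ∂μ, a ≤ x ∧ x ≤ b)
    (hweak : ∀ g : ℝ → ℝ, Continuous g → (∃ C, ∀ x, |g x| ≤ C) →
      Tendsto (fun N : ℕ => (∑ i, g (lam N i)) / N) atTop (𝓝 (∫ x, g x ∂μ)))
    (hedge : ∀ ε > 0, ∀ᶠ N in atTop, ∀ i, a - ε ≤ lam N i ∧ lam N i ≤ b + ε) :
    ∀ ε > 0, ∀ᶠ N in atTop,
      β / 2 * (∫ x, x ∂μ) - ε ≤ pressure (coupling (lam N) (U N)) β ∧
        pressure (coupling (lam N) (U N)) β ≤ β / 2 * b + ε := by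
  intro ε hε
  have hm := mean_tendsto lam μ a b hsupp hweak hedge
  have hm2 : Tendsto (fun N : ℕ => β / 2 * ((∑ i, lam N i) / N)) atTop
      (𝓝 (β / 2 * ∫ x, x ∂μ)) := hm.const_mul _
  have hlow : ∀ᶠ N : ℕ in atTop, β / 2 * (∫ x, x ∂μ) - ε < β / 2 * ((∑ i, lam N i) / N) :=
    hm2.eventually (lt_mem_nhds (by linarith))
  have hδ : 0 < ε / (β / 2 + 1) := by positivity
  filter_upwards [hlow, hedge _ hδ, eventually_gt_atTop 0] with N h1 h2 hN
  obtain ⟨hb1, hb2⟩ := bounds hN (lam N) (U N) (hU N) β hβ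
  refine ⟨by linarith, ?_⟩
  have h3 := hb2 (b + ε / (β / 2 + 1)) (fun i => (h2 i).2)
  have h4 : β / 2 * (ε / (β / 2 + 1)) ≤ ε := by
    have hpos : 0 < β / 2 + 1 := by positivity
    rw [mul_div_assoc']
    rw [div_le_iff₀ hpos]
    nlinarith
  have h5 : β / 2 * (b + ε / (β / 2 + 1)) = β / 2 * b + β / 2 * (ε / (β / 2 + 1)) := by ring
  linarith

/-- **Deterministic bounds for the pressure of orthogonally invariant Ising spin glasses.**
Part 1: for every size `N ≥ 1`, every spectrum, every orthogonal `U` and every `β ≥ 0`,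
`(β/2) tr(Λ)/N ≤ P_N(β) ≤ (β/2) λ_max`.
Part 2: under weak convergence of the spectral measures to `μ` (supported in `[a,b]`) and
confinement of the spectrum to shrinking neighbourhoods of `[a,b]`, for every choice of
orthogonal matrices all limit points of `P_N(β)` lie in `[(β/2) ∫ x dμ, (β/2) b]`; if `a = b`
(degenerate spectrum) the pressure converges to `β a / 2`. -/
theorem result :
    (∀ (N : ℕ), 0 < N → ∀ (lam : Fin N → ℝ) (U : Matrix (Fin N) (Fin N) ℝ),
        U ∈ Matrix.orthogonalGroup (Fin N) ℝ → ∀ (β : ℝ), 0 ≤ β →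
        β / 2 * ((∑ i, lam i) / N) ≤ pressure (coupling lam U) β ∧
          ∀ M : ℝ, (∀ i, lam i ≤ M) → pressure (coupling lam U) β ≤ β / 2 * M) ∧
    (∀ (lam : (N : ℕ) → Fin N → ℝ) (U : (N : ℕ) → Matrix (Fin N) (Fin N) ℝ)
        (μ : Measure ℝ) [IsProbabilityMeasure μ] (a b β : ℝ),
        (∀ N, U N ∈ Matrix.orthogonalGroup (Fin N) ℝ) → 0 ≤ β →
        (∀ᵐ x ∂μ, a ≤ x ∧ x ≤ b) →
        (∀ g : ℝ → ℝ, Continuous g → (∃ C, ∀ x, |g x| ≤ C) →
          Tendsto (fun N : ℕ => (∑ i, g (lam N i)) / N) atTop (𝓝 (∫ x, g x ∂μ))) →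
        (∀ ε > 0, ∀ᶠ N in atTop, ∀ i, a - ε ≤ lam N i ∧ lam N i ≤ b + ε) →
        (∀ ε > 0, ∀ᶠ N in atTop,
            β / 2 * (∫ x, x ∂μ) - ε ≤ pressure (coupling (lam N) (U N)) β ∧
              pressure (coupling (lam N) (U N)) β ≤ β / 2 * b + ε) ∧
          (a = b →
            Tendsto (fun N => pressure (coupling (lam N) (U N)) β) atTop (𝓝 (β / 2 * a)))) := by
  refine ⟨fun N hN lam U hU β hβ => bounds hN lam U hU β hβ, ?_⟩
  intro lam U μ _ a b β hU hβ hsupp hweak hedge
  have has := asymptotic lam U μ a b β hU hβ hsupp hweak hedge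
  refine ⟨has, ?_⟩
  intro hab
  subst hab
  have hint : ∫ x, x ∂μ = a := by
    have : ∫ x, x ∂μ = ∫ _x, a ∂μ := by
      apply integral_congr_ae
      filter_upwards [hsupp] with x hx
      linarith [hx.1, hx.2]
    rw [this]
    simp
  rw [hint] at has
  rw [Metric.tendsto_nhds]
  intro ε hε
  filter_upwards [has (ε / 2) (by positivity)] with N hN
  rw [Real.dist_eq, abs_lt]
  constructor <;> linarith [hN.1, hN.2]

end Vale.Agent.Results.P166.A_DeterministicBounds
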